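import Vale.Agent.P240.H195.SLK
import Vale.Agent.P240.H195.Elim

open Vale.Agent.P240 Vale.Agent.P240.K Vale.Agent.P240.Q Vale.Agent.P240.H195 Subgroup

universe u v

/-- Let `p` be a prime and `𝕜` any field; `HQ 𝕜` means that `𝒜ₚ` is not `𝕜`-acyclic (so it is not
contractible). `LieType r L`: `L` is simple and has a split BN-pair of characteristic `r`;
`RigidLie p L`: `L` is simple and has a rigid split BN-pair of characteristic `p`; `EuFree p L`: there
is an element `s` of `L` that is fixed by no outer automorphism `f` of `L` with `f ^ p = 1` such that
the poset of elementary abelian `p`-subgroups of `L` normalized by `s` has nonzero reduced Euler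
characteristic; `RegFree p L`: there is a `p'`-element `s ≠ 1` of `L` such that every nontrivial
elementary abelian `p`-group of automorphisms of `L` normalized by `s` contains a nontrivial element
fixing `s`, and the automorphisms fixing `s` satisfy the conditions of `RegElt` (for example regular
unipotent elements of `PSL_n(F)`, `p = 2`).
(1) If the finite group `L` is of Lie type in characteristic `r ≠ p`, then some `r`-subgroup of `L`
normalizes no nontrivial elementary abelian `p`-subgroup of `Aut(L)` (`AutFree p r L`). Every simple
group `L = PSL_n(F)`, `n ≥ 2`, `F` finite of characteristic `r`, is of Lie type in characteristic `r`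
and satisfies `RigidLie r`; if `r ≠ p`, then `L` satisfies `FewAut p` if `n = 2`, and `EuFree p` if
`n` has a divisor `d ≥ 3` such that `p` does not divide `(|F| ^ d - 1) / (|F| - 1)` and
`(d, |F|) ≠ (3, 4)` (for `p = 2`: if `n` is not a power of `2`); it satisfies `RegFree 2` if
`n = 2 ^ a ≥ 4`, `|F| ≡ 3` modulo `4` and `(n, r) ≠ (8, 3)`.
(2) All groups `A` with `Inn(L) ≤ A ≤ Aut(L)` satisfy `HQ`, if `L` satisfies `EuFree p` and has
trivial centre, or satisfies `AutFree p r` for some prime `r` (for example `L` as in (1)), or is
alternating of degree at least `5`; the same holds if `L` is of Lie type in characteristic `p` and all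
subgroups of order `p` of `A` outside `Inn(L)` have the same image in `Out(L)`.
(3) If the finite group `G` has a normal subgroup `M` that is a direct product of simple groups `L i`
satisfying `ElimFactor`, then `HQ(C_G(M))` implies `HQ(G)`. `ElimFactor 𝕜 p L` holds if `L` satisfies
`RigidLie p`; or if `p` divides the order of `L` and `L` is alternating of degree at least `5`, or is
nonabelian simple and satisfies `AutFree p r` (for example `L` of Lie type in characteristic `r`) where
`r ≠ p` is the characteristic of `𝕜`, or is nonabelian simple and has few outer automorphisms of order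
`p` and satisfies `AutFree p r` for some prime `r` or `EuFree p` (for example `L = PSL_2(F)`). The
elements of `G` may induce arbitrary automorphisms of `M`: they may permute the factors and induce any
outer automorphisms of them. No condition on `C_G(M)` or `G` is needed.
(4) The main theorem. Suppose that `O_p(G) = 1` and `l` is a prime, and that each nonabelian
composition factor `L` of `G` is alternating, or satisfies `RigidLie p`, or satisfies `EuFree p` and
has order divisible by `p`, or satisfies `AutFree p r` for a prime `r` (for example `L` of Lie type in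
a characteristic `r ≠ p`) such that `r = l`, or `r ≠ p` is the characteristic of `𝕜`, or `L` has few
outer automorphisms of order `p`, or `p` does not divide the order of `L`; or, if `l = p`, satisfies
`RegFree p` and has order divisible by `p`. Then `HQ(G)`. In particular `HQ(G)` holds if each
nonabelian composition factor of `G` is an alternating group, or `PSL_2(F)` for any finite field `F`, or `PSL_n(F)` for any finite field `F` where `n` has a divisor
`d ≥ 3` such that `p` does not divide `(|F| ^ d - 1) / (|F| - 1)` and `(d, |F|) ≠ (3, 4)` (for `p = 2`
and `|F|` odd: `n` is not a power of `2`), or `PSL_n(F)` where the characteristic of `F` is `p` or `l`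
or the characteristic of `𝕜`, or where `p` does not divide the order of `PSL_n(F)`, or, if `l = p = 2`,
`PSL_n(F)` where `n ≥ 4` is a power of `2` and `|F| ≡ 3` modulo `4`, except for the groups `PSL_8(F)`
with `F` of characteristic `3`.
(5) A version for components. Suppose that `O_p(G) = 1`, `l` is a prime, and all components of `G`
(if `O_{p'}(G) = 1`) or of `C_G(N) / (N ∩ C_G(N))` (if `N = O_{p'}(G)` satisfies `SolvableFaithful` or
each nonabelian composition factor of `N` satisfies `AutFree` for some prime) satisfy `RigidLie p` or
`EuSub p` (the analogue of `EuFree p` for the automorphisms of the component that are induced by its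
normalizer) or, if `l = p`, `RegFree p`, or are `Treated`: each one is alternating; or of Lie type in
characteristic `p` and has one class of outer subgroups of order `p` or satisfies the index condition for `l`; or of Lie type in
a characteristic `r ≠ p` where `r = l`, or `r` is the characteristic of `𝕜`, or there are few outer
subgroups; or has few outer subgroups and satisfies `AutFree` for some prime or `AlmostSimpleHQ`; or
satisfies `FreeSub` for `l` or the characteristic of `𝕜`. Then `HQ(G)`. The elements of `G` may
permute the components arbitrarily. -/
theorem Vale.Agent.Results.P240.LieTypeComponents7.result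
    {𝕜 : Type v} [Field 𝕜] {p : ℕ} [Fact p.Prime] :
    (∀ (L : Type u) [Group L] [Finite L] (r : ℕ), r.Prime → r ≠ p → LieType r L →
      AutFree p r L) ∧
    (∀ (F : Type u) [Field F] [Finite F] (n r : ℕ), 2 ≤ n → CharP F r →
      IsSimpleGroup (Matrix.ProjectiveSpecialLinearGroup (Fin n) F) →
      PSLProp p r n F) ∧
    (∀ (L : Type u) [Group L] [Finite L] (A : Subgroup (MulAut L)), (∀ x, MulAut.conj x ∈ A) →
      AlmostCase p A → K.HQ 𝕜 p A) ∧
    (∀ (G : Type u) [Group G] [Finite G] (M : Subgroup G) [M.Normal] (ι : Type u) [Finite ι]
      (L : ι → Type u) [∀ i, Group (L i)], (∀ i, ElimFactor 𝕜 p (L i)) → Nonempty (M ≃* ∀ i, L i) →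
      K.HQ 𝕜 p (centralizer (M : Set G)) → K.HQ 𝕜 p G) ∧
    ∀ (G : Type u) [Group G] [Finite G] (l : ℕ), l.Prime → OpTrivial p G →
      ((∀ (L : Type u) [Group L], CompFactor G L → GoodFactor 𝕜 p l L) → K.HQ 𝕜 p G) ∧
      ((∀ (L : Type u) [Group L], CompFactor G L → Explicit 𝕜 p l L) → K.HQ 𝕜 p G) ∧
      (OpPrimeTrivial p G → (∀ L ∈ Q.Comp G, GoodComp 𝕜 p l L) → K.HQ 𝕜 p G) ∧
      ∀ (N : Subgroup G) [N.Normal], ¬ p ∣ Nat.card N →
        (∀ X : Subgroup G, X.Normal → ¬ p ∣ Nat.card X → X ≤ N) →
        (SolvableFaithful p N ∨
          ∀ (L : Type u) [Group L], CompFactor N L → ∃ r : ℕ, r.Prime ∧ AutFree p r L) →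
        (∀ L ∈ Q.Comp (Reduced N), GoodComp 𝕜 p l L) → K.HQ 𝕜 p G :=
  ⟨fun _ _ _ _ hr hrp hL => hL.autFree hr (Fact.out : p.Prime) hrp.symm,
    fun F _ _ n r hn hr hs => psl_all F n r hn hr hs,
    fun _ _ _ A hA h => h.elim (fun h => h.1.hq h.2 A hA) (almost_simple hA),
    fun _ _ _ M _ _ _ L _ hL e hC => elim_all M L hL e.some hC,
    fun _ _ _ _ hl hO => ⟨factor_main hl hO,
      fun h => factor_main hl hO fun L _ hL => (h L hL).good hL,
      fun hO' h => all_good hO hO' hl h,
      fun N _ hN hmax hsol h => reduce_all N hN (hsol.elim id fun h => solvableFaithful_of hN h)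
        (all_good (reduced_op hO N hN) (reduced_op' N hN hmax) hl h)⟩⟩
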